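import Vale.Agent.P297.Cc.MainA

open CategoryTheory AlgebraicGeometry IntermediateField Polynomial Vale.Agent.P297
  Vale.Agent.P297.H839 Vale.Agent.P297.Gg

namespace Vale.Agent.Results.P297.SplitJacobians

theorem result :
    ∀ (K W : Type) [Field K] [Algebra ℂ K] [Field W] [Algebra ℂ W] [IsAlgClosed W] (g : ℕ)
      (l x y : K) (f : (IntermediateField.adjoin ℂ {l})[X]), HPencil g l x y f → 1 ≤ g →
      ∀ (em : K →ₐ[ℂ] W), (∀ u : W, IsAlgebraic em.fieldRange u) →
      ∀ (k : IntermediateField ℂ W),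
      (∀ e, e ∈ k ↔ IsAlgebraic (IntermediateField.adjoin ℂ {em l}) e) →
      ∀ (D : Derivation k W W), D (em x) = 1 →
      ∀ (ι : Type) (Q : ι → IntermediateField ℂ W) (w : ι → W),
      (∀ b, IsRational (Q b) ∧ em.fieldRange ≤ Q b ⊔ IntermediateField.adjoin ℂ {em x} ∧
        (minpoly (Q b) (em x)).natDegree =
          (minpoly (k ⊔ Q b : IntermediateField ℂ W) (em x)).natDegree ∧
        w b ∈ Q b ∧ D (w b) ≠ 0) →
      (∀ a : k[X], a.natDegree < g →
        (∀ b, ∀ u : IntermediateField.adjoin (k ⊔ Q b : IntermediateField ℂ W) {em x},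
          (u : W) = aeval (em x) a / (em y * D (w b)) →
          Algebra.trace (k ⊔ Q b : IntermediateField ℂ W)
            (IntermediateField.adjoin (k ⊔ Q b : IntermediateField ℂ W) {em x}) u = 0) → a = 0) →
      ∀ (K₀ : Type) [Field K₀] [Algebra ℂ K₀], (K₀ →ₐ[ℂ] K) → PointsEquivalent K₀ := by
  intro K W _ _ _ _ _ g l x y f h hg em hW k hk D hD ι Q w hQ htr K₀ _ _ e
  exact Cc.forms_traced_corr h hg em hW k hk Q (fun b => (hQ b).1) (fun b => (hQ b).2.1)
    (fun b => (hQ b).2.2.1) D hD w (fun b => (hQ b).2.2.2.1) (fun b => (hQ b).2.2.2.2) htr K₀ e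

end Vale.Agent.Results.P297.SplitJacobians
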