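import Vale.Agent.P297.Gen.H878.Three
import Vale.Agent.P297.Gen.H516.Hesse
import Vale.Agent.P297.H516.SplitDefs
import Vale.Agent.P297.H729.Four

open CategoryTheory AlgebraicGeometry IntermediateField Vale.Agent.P297 Vale.Agent.P297.H839
  Vale.Agent.P297.H878 Vale.Agent.P297.H516 Vale.Agent.P297.H729 Vale.Agent.P297.Gen

namespace Vale.Agent.Results.P297.SplitPencils

theorem result :
    -- (1) the one-parameter family with (4,4)-split Jacobian
    (∀ (K : Type) [Field K] [Algebra ℂ K] (h : ℂ) (t z w : K), h ≠ 0 → h ^ 2 ≠ 1 →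
      AlgebraicIndependent ℂ ![t, z] → w ^ 2 = branchD h t z →
      IntermediateField.adjoin ℂ {t, z, w} = ⊤ → PointsEquivalent K) ∧
    -- (2) genus two pencils with (3,3)-split Jacobian and rational elliptic quotients
    (∀ (K : Type) [Field K] [Algebra ℂ K] (l x y t a b c d : K),
      AlgebraicIndependent ℂ ![l, x] → t ∈ IntermediateField.adjoin ℂ {l} →
      a ∈ IntermediateField.adjoin ℂ {l} → b ∈ IntermediateField.adjoin ℂ {l} →
      c ∈ IntermediateField.adjoin ℂ {l} → d ∈ IntermediateField.adjoin ℂ {l} →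
      t ≠ 0 → 12 * a * c + 16 * b * d = 1 → a ^ 3 + b ^ 2 ≠ 0 → c ^ 3 + d ^ 2 ≠ 0 →
      t * y ^ 2 = pp a b x * qq c d x → IntermediateField.adjoin ℂ {l, x, y} = ⊤ →
      IsRational (IntermediateField.adjoin ℂ
        {l, (c - 2 * d * x) / pp a b x, y * mm c d x / pp a b x ^ 2}) →
      IsRational (IntermediateField.adjoin ℂ
        {l, x ^ 2 * (a * x - 2 * b) / qq c d x, y * nn a b x / qq c d x ^ 2}) →
      PointsEquivalent K) ∧
    -- (3) the three-parameter family glued from two Hesse pencils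
    (∀ (K : Type) [Field K] [Algebra ℂ K] (α β γ δ : ℂ) (l m Z Y : K),
      Moebius α β γ δ l m → AlgebraicIndependent ℂ ![l, Z] →
      Y ^ 2 = Wf l m * Pf l m Z * Qf l m Z → IntermediateField.adjoin ℂ {l, Z, Y} = ⊤ →
      PointsEquivalent K) ∧
    -- (4) the criterion for cycles of embeddings invariant under infinite automorphism groups
    (∀ (K Ω : Type) [Field K] [Algebra ℂ K] [Field Ω] [Algebra ℂ Ω] [IsAlgClosed Ω]
      [Algebra K Ω] [IsScalarTower ℂ K Ω] [Algebra.IsAlgebraic K Ω] (n : ℤ),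
      Finsupp.single (IsScalarTower.toAlgHom ℂ K Ω) n ∈ stableRelations K Ω →
      TorsionPoints n K ∧ ∀ k : ℕ, n = 2 ^ k → IsDouble K → PointsEquivalent K) := by
  refine ⟨?_, ?_, ?_, ?_⟩
  · intro K _ _ h t z w h0 h1 hind hw htop
    exact four_split h0 h1 hind hw htop
  · intro K _ _ l x y t a b c d hind ht ha hb hc hd ht0 h hD₁ hD₂ hy htop h1 h2
    exact three_split l x y hind t a b c d ht ha hb hc hd ht0 h hD₁ hD₂ hy htop h1 h2
  · intro K _ _ α β γ δ l m Z Y hM hind hY htop
    obtain ⟨y, t, a, b, c, d, ht, ha, hb, hc, hd, ht0, h, hD₁, hD₂, hy, htop', h1, h2⟩ :=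
      glue_red hM hind hY htop
    exact three_split l Z y hind t a b c d ht ha hb hc hd ht0 h hD₁ hD₂ hy htop' h1 h2
  · intro K Ω _ _ _ _ _ _ _ _ n hn
    refine ⟨fun S _ f _ hS x y => criterion_stable n hn f hS x y, ?_⟩
    rintro k rfl hK S _ f _ hS x y
    exact criterion_stable_one hK k hn f hS x y

end Vale.Agent.Results.P297.SplitPencils
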